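import Mathlib

/-!
# P207, line N4: the stable holonomy in affine charts (row T3), the analytic core
-/

namespace Vale.Agent.P207.H761

open Filter Topology Set

section Lim

variable {E : Type*} [NormedAddCommGroup E] [NormedSpace ℝ E] [CompleteSpace E]

/-- the constant of `hol_lim` -/
noncomputable def KL (C r : ℝ) : ℝ := C ^ 3 / (1 - r)

theorem KL_nonneg {C r : ℝ} (hC : 0 ≤ C) (hr : r < 1) : 0 ≤ KL C r :=
  div_nonneg (by positivity) (by linarith)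

/-- Existence of the derivative of the stable holonomy as a limit. -/
theorem hol_lim {lam lp mu C δ : ℝ} (hlam : 0 ≤ lam) (hmu : 0 ≤ mu) (hC : 0 ≤ C)
    (hr : lam * lp * mu < 1) {D Di P Q : ℕ → E →L[ℝ] E}
    (PS : ∀ n, P (n + 1) = (D n).comp (P n)) (QS : ∀ n, Q (n + 1) = (Q n).comp (Di n))
    (hP : ∀ n, ‖P n‖ ≤ C * mu ^ n) (hQ : ∀ n, ‖Q n‖ ≤ C * lam ^ n)
    (hD : ∀ n, ‖(Di n).comp (D n) - 1‖ ≤ C * δ * lp ^ n) :
    ∃ L : E →L[ℝ] E, ∀ n,
      ‖(Q n).comp (P n) - L‖ ≤ KL C (lam * lp * mu) * δ * (lam * lp * mu) ^ n := by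
  set r := lam * lp * mu with hrdef
  have hstep : ∀ n, dist ((Q n).comp (P n)) ((Q (n + 1)).comp (P (n + 1))) ≤
      (C ^ 3 * δ) * r ^ n := by
    intro n
    rw [dist_comm, dist_eq_norm]
    have e1 : (Q (n + 1)).comp (P (n + 1)) - (Q n).comp (P n) =
        (Q n).comp (((Di n).comp (D n) - 1).comp (P n)) := by
      rw [PS, QS]
      ext v
      simp
    rw [e1]
    have hC0 : 0 ≤ C * lam ^ n := by positivity
    have hM0 : 0 ≤ C * mu ^ n := by positivity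
    calc ‖(Q n).comp (((Di n).comp (D n) - 1).comp (P n))‖
        ≤ ‖Q n‖ * (‖(Di n).comp (D n) - 1‖ * ‖P n‖) :=
          (ContinuousLinearMap.opNorm_comp_le _ _).trans
            (mul_le_mul_of_nonneg_left (ContinuousLinearMap.opNorm_comp_le _ _) (norm_nonneg _))
      _ ≤ (C * lam ^ n) * ((C * δ * lp ^ n) * (C * mu ^ n)) := by
          have h0 : 0 ≤ C * δ * lp ^ n := (norm_nonneg _).trans (hD n)
          gcongr
          · exact hQ n
          · exact hD n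
          · exact hP n
      _ = (C ^ 3 * δ) * r ^ n := by
          rw [hrdef, mul_pow, mul_pow]
          ring
  have hc : CauchySeq fun n => (Q n).comp (P n) := cauchySeq_of_le_geometric r _ hr hstep
  obtain ⟨L, hL⟩ := cauchySeq_tendsto_of_complete hc
  refine ⟨L, fun n => ?_⟩
  have := dist_le_of_le_geometric_of_tendsto r _ hr hstep hL n
  rw [dist_eq_norm] at this
  refine this.trans (le_of_eq ?_)
  rw [KL]
  ring

omit [CompleteSpace E] in
/-- The limit is unique. -/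
theorem lim_unique {K δ r : ℝ} (hr0 : 0 ≤ r) (hr : r < 1) {A : ℕ → E →L[ℝ] E}
    {L L' : E →L[ℝ] E} (h : ∀ n, ‖A n - L‖ ≤ K * δ * r ^ n) (h' : ∀ n, ‖A n - L'‖ ≤ K * δ * r ^ n) :
    L = L' := by
  have ht : Tendsto (fun n : ℕ => K * δ * r ^ n) atTop (𝓝 0) := by
    simpa using (tendsto_pow_atTop_nhds_zero_of_lt_one hr0 hr).const_mul (K * δ)
  have t1 : Tendsto A atTop (𝓝 L) := by
    rw [tendsto_iff_norm_sub_tendsto_zero]
    exact squeeze_zero (fun _ => norm_nonneg _) h ht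
  have t2 : Tendsto A atTop (𝓝 L') := by
    rw [tendsto_iff_norm_sub_tendsto_zero]
    exact squeeze_zero (fun _ => norm_nonneg _) h' ht
  exact tendsto_nhds_unique t1 t2

omit [CompleteSpace E] in
/-- convergence from the geometric bound -/
theorem tendsto_of_geo {K r : ℝ} (hr0 : 0 ≤ r) (hr : r < 1) {A : ℕ → E →L[ℝ] E}
    {L : E →L[ℝ] E} (h : ∀ n, ‖A n - L‖ ≤ K * r ^ n) : Tendsto A atTop (𝓝 L) := by
  have ht : Tendsto (fun n : ℕ => K * r ^ n) atTop (𝓝 0) := by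
    simpa using (tendsto_pow_atTop_nhds_zero_of_lt_one hr0 hr).const_mul K
  rw [tendsto_iff_norm_sub_tendsto_zero]
  exact squeeze_zero (fun _ => norm_nonneg _) h ht

omit [CompleteSpace E] in
/-- if the finite products are inverse to each other then so are the limits -/
theorem lim_comp {K K' r : ℝ} (hr0 : 0 ≤ r) (hr : r < 1) {A B : ℕ → E →L[ℝ] E}
    {L M : E →L[ℝ] E} (h : ∀ n, ‖A n - L‖ ≤ K * r ^ n) (h' : ∀ n, ‖B n - M‖ ≤ K' * r ^ n)
    (hAB : ∀ n, (A n).comp (B n) = 1) : L.comp M = 1 := by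
  have t1 := tendsto_of_geo hr0 hr h
  have t2 := tendsto_of_geo hr0 hr h'
  have t3 : Tendsto (fun n => (A n).comp (B n)) atTop (𝓝 (L.comp M)) := by
    exact (t1.prodMk_nhds t2 |> fun t => ((isBoundedBilinearMap_comp.continuous.tendsto
      ((L, M) : (E →L[ℝ] E) × (E →L[ℝ] E))).comp t))
  have t4 : Tendsto (fun n => (A n).comp (B n)) atTop (𝓝 (1 : E →L[ℝ] E)) := by
    simp only [hAB]
    exact tendsto_const_nhds
  exact tendsto_nhds_unique t3 t4

end Lim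

section Der

variable {E : Type*} [NormedAddCommGroup E] [NormedSpace ℝ E]

/-- the constant of `hol_deriv2` -/
noncomputable def KE (C mu sg r κ : ℝ) : ℝ := (C ^ 3 * (mu / sg) + KL C r) * (C * (mu / sg)) ^ κ

theorem KE_nonneg {C mu sg r κ : ℝ} (hC : 0 ≤ C) (hmu : 0 ≤ mu) (hsg : 0 ≤ sg) (hr : r < 1) :
    0 ≤ KE C mu sg r κ :=
  mul_nonneg (add_nonneg (by positivity) (KL_nonneg hC hr)) (by positivity)

/-- `h 0 = 0` -/
theorem hol_zero2 {lam lp C δ : ℝ} (hlam : 0 ≤ lam) (hlam1 : lam < 1) (hlp : 0 ≤ lp)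
    (hlp1 : lp ≤ 1) (hC : 0 ≤ C)
    {P Q : ℕ → E →L[ℝ] E}
    (hQ : ∀ n, ‖Q n‖ ≤ C * lam ^ n) {h : E → E} {hn : ℕ → E → E}
    (hh : ∀ n u, ‖P n u‖ ≤ 1 → h u = Q n (hn n (P n u)))
    (hc : ∀ n w, ‖w‖ ≤ 1 → ‖hn n w - w‖ ≤ C * (δ * lp ^ n + ‖w‖ ^ 2)) : h 0 = 0 := by
  have hb : ∀ n, ‖h 0‖ ≤ (C * δ * C) * (lam * lp) ^ n := by
    intro n
    rw [hh n 0 (by simp)]
    have h1 := hc n (P n 0) (by simp)
    simp only [map_zero, sub_zero, norm_zero, ne_eq, OfNat.ofNat_ne_zero, not_false_eq_true,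
      zero_pow, add_zero] at h1 ⊢
    calc ‖Q n (hn n 0)‖ ≤ ‖Q n‖ * ‖hn n 0‖ := (Q n).le_opNorm _
      _ ≤ (C * lam ^ n) * (C * (δ * lp ^ n)) := by
        have : 0 ≤ C * lam ^ n := by positivity
        gcongr
        exact hQ n
      _ = _ := by rw [mul_pow]; ring
  have ht : Tendsto (fun n : ℕ => (C * δ * C) * (lam * lp) ^ n) atTop (𝓝 0) := by
    simpa using (tendsto_pow_atTop_nhds_zero_of_lt_one (by positivity)
      (by nlinarith : lam * lp < 1)).const_mul (C * δ * C)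
  have : ‖h 0‖ ≤ 0 := ge_of_tendsto' ht hb
  exact norm_le_zero_iff.1 this

/-- The holonomy is differentiable at `0`: weak form of the closeness (`δ lp^n + ‖w‖²`), for
`lam² lp mu² < 1`; `sg` is chosen with `lam lp mu < sg`, `lam mu sg < 1`. -/
theorem hol_deriv2 {lam lp mu sg rho C c δ κ : ℝ} (hlam : 0 < lam) (hlam1 : lam < 1)
    (hlp : 0 < lp) (hlp1 : lp ≤ 1) (hmu : 1 ≤ mu)
    (hsg : 0 < sg) (hsg1 : sg ≤ 1)
    (hC : 0 ≤ C) (hc0 : 0 < c) (hδ : 0 ≤ δ) (hκ : 0 ≤ κ) (hr : lam * lp * mu < 1)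
    (h1 : lam * lp * mu / sg ≤ rho) (h2 : lam * mu * sg ≤ rho)
    (hmκ : (sg / mu) ^ κ = rho)
    {P Q : ℕ → E →L[ℝ] E} {L : E →L[ℝ] E} (P0 : P 0 = 1)
    (hP : ∀ n, ‖P n‖ ≤ C * mu ^ n) (hQ : ∀ n, ‖Q n‖ ≤ C * lam ^ n)
    (hL : ∀ n, ‖(Q n).comp (P n) - L‖ ≤ KL C (lam * lp * mu) * δ * (lam * lp * mu) ^ n)
    (hexp : ∀ n u, c * (lam⁻¹) ^ n * ‖u‖ ≤ ‖P n u‖)
    {h : E → E} {hn : ℕ → E → E}
    (hh : ∀ n u, ‖P n u‖ ≤ 1 → h u = Q n (hn n (P n u)))
    (hcl : ∀ n w, ‖w‖ ≤ 1 → ‖hn n w - w‖ ≤ C * (δ * lp ^ n + ‖w‖ ^ 2)) :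
    ∀ u, ‖u‖ ≤ 1 → ‖h u - L u‖ ≤ KE C mu sg (lam * lp * mu) κ * (1 + δ) * ‖u‖ ^ (1 + κ) := by
  intro u hu
  set r := lam * lp * mu with hrdef
  have hmu0 : 0 < mu := by linarith
  have hr0 : 0 < r := by positivity
  have hKL := KL_nonneg hC hr
  have hKE : 0 ≤ KE C mu sg r κ := KE_nonneg hC hmu0.le hsg.le hr
  rcases eq_or_ne u 0 with rfl | hu0
  · rw [hol_zero2 hlam.le hlam1 hlp.le hlp1 hC hQ hh hcl]
    simp only [map_zero, sub_zero, norm_zero]
    positivity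
  have hun : 0 < ‖u‖ := norm_pos_iff.2 hu0
  have hex : ∃ N, sg ^ N < ‖P N u‖ := by
    have h1 : 1 < lam⁻¹ := (one_lt_inv₀ hlam).2 hlam1
    obtain ⟨N, hN⟩ := pow_unbounded_of_one_lt (1 / (c * ‖u‖)) h1
    refine ⟨N, lt_of_lt_of_le ?_ (hexp N u)⟩
    rw [div_lt_iff₀ (by positivity)] at hN
    have : sg ^ N ≤ 1 := pow_le_one₀ hsg.le hsg1
    linarith
  classical
  set N := Nat.find hex with hNdef
  have hN : sg ^ N < ‖P N u‖ := Nat.find_spec hex
  have hN0 : N ≠ 0 := by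
    intro h0
    rw [h0, P0] at hN
    simp only [one_apply_eq_self, pow_zero] at hN
    linarith
  obtain ⟨n, hn1⟩ := Nat.exists_eq_succ_of_ne_zero hN0
  have hP1 : ‖P n u‖ ≤ sg ^ n := by
    have := Nat.find_min hex (m := n) (by omega)
    exact not_lt.1 this
  have hP2 : ‖P n u‖ ≤ 1 := hP1.trans (pow_le_one₀ hsg.le hsg1)
  have hsm : (sg / mu) ^ n ≤ C * (mu / sg) * ‖u‖ := by
    have h3 : sg ^ (n + 1) ≤ C * mu ^ (n + 1) * ‖u‖ := by
      have h2 : ‖P (n + 1) u‖ ≤ C * mu ^ (n + 1) * ‖u‖ :=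
        ((P (n + 1)).le_opNorm u).trans (mul_le_mul_of_nonneg_right (hP (n + 1)) hun.le)
      rw [← Nat.succ_eq_add_one, ← hn1] at h2
      rw [← Nat.succ_eq_add_one, ← hn1]
      linarith
    rw [div_pow, div_le_iff₀ (by positivity)]
    have h4 : sg * sg ^ n ≤ sg * (C * (mu / sg) * ‖u‖ * mu ^ n) := by
      calc sg * sg ^ n = sg ^ (n + 1) := by ring
        _ ≤ C * mu ^ (n + 1) * ‖u‖ := h3
        _ = _ := by field_simp; ring
    exact le_of_mul_le_mul_left h4 hsg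
  have hrho0 : 0 < rho := lt_of_lt_of_le (by positivity) h2
  have hrn : rho ^ n ≤ (C * (mu / sg) * ‖u‖) ^ κ := by
    have h3 : rho ^ n = ((sg / mu) ^ n) ^ κ := by
      rw [← hmκ, ← Real.rpow_natCast, ← Real.rpow_natCast, ← Real.rpow_mul (by positivity),
        ← Real.rpow_mul (by positivity)]
      congr 1
      ring
    rw [h3]
    exact Real.rpow_le_rpow (by positivity) hsm hκ
  have hrr : r ≤ rho := by
    refine le_trans ?_ h1
    rw [le_div_iff₀ hsg]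
    nlinarith
  have e1 : h u - L u = Q n (hn n (P n u) - P n u) + ((Q n).comp (P n) - L) u := by
    rw [hh n u hP2, map_sub, sub_apply, ContinuousLinearMap.comp_apply]
    abel
  rw [e1]
  have hl1 : lam ^ n * lp ^ n ≤ rho ^ n * (sg / mu) ^ n := by
    rw [← mul_pow, ← mul_pow]
    apply pow_le_pow_left₀ (by positivity)
    calc lam * lp = (lam * lp * mu / sg) * (sg / mu) := by field_simp
      _ ≤ rho * (sg / mu) := by gcongr
  have hl2 : lam ^ n * (sg ^ n) ^ 2 ≤ rho ^ n * (sg / mu) ^ n := by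
    rw [← pow_mul, mul_comm n 2, pow_mul, ← mul_pow, ← mul_pow]
    apply pow_le_pow_left₀ (by positivity)
    calc lam * sg ^ 2 = (lam * mu * sg) * (sg / mu) := by field_simp
      _ ≤ rho * (sg / mu) := by gcongr
  have e2 : ‖Q n (hn n (P n u) - P n u)‖ ≤ C ^ 3 * (mu / sg) * (1 + δ) * rho ^ n * ‖u‖ := by
    calc ‖Q n (hn n (P n u) - P n u)‖ ≤ ‖Q n‖ * ‖hn n (P n u) - P n u‖ := (Q n).le_opNorm _
      _ ≤ (C * lam ^ n) * (C * (δ * lp ^ n + (sg ^ n) ^ 2)) := by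
        have h0 := hcl n _ hP2
        have h01 : ‖P n u‖ ^ 2 ≤ (sg ^ n) ^ 2 := by gcongr
        have h02 : ‖hn n (P n u) - P n u‖ ≤ C * (δ * lp ^ n + (sg ^ n) ^ 2) :=
          h0.trans (by gcongr)
        have : 0 ≤ C * lam ^ n := by positivity
        gcongr
        exact hQ n
      _ = C ^ 2 * (δ * (lam ^ n * lp ^ n) + lam ^ n * (sg ^ n) ^ 2) := by ring
      _ ≤ C ^ 2 * (δ * (rho ^ n * (sg / mu) ^ n) + rho ^ n * (sg / mu) ^ n) := by gcongr
      _ = C ^ 2 * (1 + δ) * rho ^ n * (sg / mu) ^ n := by ring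
      _ ≤ C ^ 2 * (1 + δ) * rho ^ n * (C * (mu / sg) * ‖u‖) := by gcongr
      _ = _ := by ring
  have e3 : ‖((Q n).comp (P n) - L) u‖ ≤ KL C r * (1 + δ) * rho ^ n * ‖u‖ := by
    refine (((Q n).comp (P n) - L).le_opNorm u).trans
      (mul_le_mul_of_nonneg_right ((hL n).trans ?_) hun.le)
    gcongr
    linarith
  calc ‖Q n (hn n (P n u) - P n u) + ((Q n).comp (P n) - L) u‖
      ≤ C ^ 3 * (mu / sg) * (1 + δ) * rho ^ n * ‖u‖ + KL C r * (1 + δ) * rho ^ n * ‖u‖ :=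
        (norm_add_le _ _).trans (add_le_add e2 e3)
    _ = (C ^ 3 * (mu / sg) + KL C r) * (1 + δ) * ‖u‖ * rho ^ n := by ring
    _ ≤ (C ^ 3 * (mu / sg) + KL C r) * (1 + δ) * ‖u‖ * (C * (mu / sg) * ‖u‖) ^ κ := by gcongr
    _ = KE C mu sg r κ * (1 + δ) * ‖u‖ ^ (1 + κ) := by
        rw [KE, Real.mul_rpow (by positivity) hun.le, Real.rpow_add hun, Real.rpow_one]
        ring

/-- the exponents exist -/
theorem exists_exponents {lam lp mu : ℝ} (hlam : 0 < lam) (hlam1 : lam < 1) (hlp : 0 < lp)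
    (hlp1 : lp ≤ 1) (hmu : 1 < mu) (h : lam ^ 2 * lp * mu ^ 2 < 1) :
    ∃ sg rho κ : ℝ, 0 < sg ∧ sg ≤ 1 ∧ 0 < κ ∧ lam * lp * mu / sg ≤ rho ∧ lam * mu * sg ≤ rho ∧
      (sg / mu) ^ κ = rho ∧ rho < 1 ∧ lam * lp * mu < 1 := by
  have hmu0 : 0 < mu := by linarith
  have hr : lam * lp * mu < 1 := by
    rcases le_or_gt 1 (lam * mu) with h1 | h1
    · have : lam * lp * mu * 1 ≤ lam * lp * mu * (lam * mu) := by gcongr
      nlinarith
    · calc lam * lp * mu = (lam * mu) * lp := by ring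
        _ ≤ (lam * mu) * 1 := by gcongr
        _ < 1 := by linarith
  set m := min 1 (1 / (lam * mu)) with hm
  have hm1 : lam * lp * mu < m := by
    rw [hm, lt_min_iff]
    refine ⟨hr, ?_⟩
    rw [lt_div_iff₀ (by positivity)]
    nlinarith
  obtain ⟨sg, h1, h2⟩ := exists_between hm1
  have hsg : 0 < sg := lt_trans (by positivity) h1
  have hsg1 : sg < 1 := h2.trans_le (min_le_left _ _)
  have hsg2 : lam * mu * sg < 1 := by
    have h3 : sg < 1 / (lam * mu) := h2.trans_le (min_le_right _ _)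
    rw [lt_div_iff₀ (by positivity)] at h3
    linarith
  have h4 : lam * lp * mu / sg < 1 := by
    rw [div_lt_one hsg]; exact h1
  set rho := max (lam * lp * mu / sg) (lam * mu * sg) with hrho
  have hrho1 : rho < 1 := max_lt h4 hsg2
  have hrho0 : 0 < rho := lt_of_lt_of_le (by positivity) (le_max_left _ _)
  have h5 : sg / mu < 1 := by
    rw [div_lt_one hmu0]; linarith
  have h6 : 0 < sg / mu := by positivity
  have h7 : Real.log (sg / mu) < 0 := Real.log_neg h6 h5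
  have h8 : Real.log rho < 0 := Real.log_neg hrho0 hrho1
  refine ⟨sg, rho, Real.log rho / Real.log (sg / mu), hsg, hsg1.le, div_pos_of_neg_of_neg h8 h7,
    le_max_left _ _, le_max_right _ _, ?_, hrho1, hr⟩
  rw [Real.rpow_def_of_pos h6, mul_div_cancel₀ _ h7.ne, Real.exp_log hrho0]

/-- derivative at `0` from the remainder -/
theorem hasFDerivAt_of_rem {K θ : ℝ} (hθ : 0 < θ) {h : E → E} {L : E →L[ℝ] E}
    (h0 : h 0 = 0) (hb : ∀ u, ‖u‖ ≤ 1 → ‖h u - L u‖ ≤ K * ‖u‖ ^ (1 + θ)) :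
    HasFDerivAt h L 0 := by
  rw [hasFDerivAt_iff_isLittleO_nhds_zero]
  simp only [zero_add, h0, sub_zero]
  have h1 : (fun u => h u - L u) =O[𝓝 0] fun u : E => ‖u‖ ^ (1 + θ) := by
    apply Asymptotics.IsBigO.of_bound K
    filter_upwards [Metric.closedBall_mem_nhds (0 : E) one_pos] with u hu
    rw [Real.norm_of_nonneg (by positivity)]
    exact hb u (by simpa using hu)
  refine h1.trans_isLittleO ?_
  have h2 : (fun u : E => ‖u‖ ^ (1 + θ)) =o[𝓝 0] fun u : E => ‖u‖ := by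
    have h3 : Tendsto (fun u : E => ‖u‖ ^ θ) (𝓝 0) (𝓝 0) := by
      have : Tendsto (fun u : E => ‖u‖ ^ θ) (𝓝 0) (𝓝 (‖(0 : E)‖ ^ θ)) :=
        (continuous_norm.continuousAt.rpow_const (Or.inr hθ.le))
      simpa [Real.zero_rpow hθ.ne'] using this
    have h4 : (fun u : E => ‖u‖ ^ (1 + θ)) = fun u => ‖u‖ ^ θ * ‖u‖ := by
      funext u
      rcases eq_or_ne ‖u‖ 0 with h | h
      · rw [h, Real.zero_rpow (by linarith), mul_zero]
      · rw [add_comm, Real.rpow_add (lt_of_le_of_ne (norm_nonneg u) h.symm), Real.rpow_one]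
    rw [h4]
    have := (Asymptotics.isLittleO_one_iff ℝ).2 h3
    simpa using this.mul_isBigO (Asymptotics.isBigO_refl (fun u : E => ‖u‖) (𝓝 0))
  exact h2.of_norm_right

/-- continuity of a locally uniform geometric limit -/
theorem continuousOn_of_geo {Y : Type*} [TopologicalSpace Y] {F : Type*} [NormedAddCommGroup F]
    {S : Set Y} {A : ℕ → Y → F} {L : Y → F} {r : ℝ} (hr0 : 0 ≤ r) (hr : r < 1)
    (hA : ∀ n, ContinuousOn (A n) S)
    (hb : ∀ y ∈ S, ∃ K : ℝ, ∃ U ∈ 𝓝[S] y, ∀ z ∈ U, ∀ n, ‖A n z - L z‖ ≤ K * r ^ n) :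
    ContinuousOn L S := by
  have ht : TendstoLocallyUniformlyOn A L atTop S := by
    rw [Metric.tendstoLocallyUniformlyOn_iff]
    intro ε hε y hy
    obtain ⟨K, U, hU, hK⟩ := hb y hy
    refine ⟨U, hU, ?_⟩
    have h1 : Tendsto (fun n : ℕ => K * r ^ n) atTop (𝓝 0) := by
      simpa using (tendsto_pow_atTop_nhds_zero_of_lt_one hr0 hr).const_mul K
    filter_upwards [h1.eventually (gt_mem_nhds hε)] with n hn z hz
    rw [dist_comm, dist_eq_norm]
    exact (hK z hz n).trans_lt hn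
  exact ht.continuousOn (Frequently.of_forall hA)

/-- `C¹` from pointwise derivatives which are continuous -/
theorem contDiffOn_one_of_hasFDerivAt {F : Type*} [NormedAddCommGroup F] [NormedSpace ℝ F]
    {O : Set E} (hO : IsOpen O) {h : E → F} {L : E → E →L[ℝ] F}
    (hd : ∀ u ∈ O, HasFDerivAt h (L u) u) (hL : ContinuousOn L O) : ContDiffOn ℝ 1 h O := by
  rw [show (1 : WithTop ℕ∞) = 0 + 1 from rfl, contDiffOn_succ_iff_fderiv_of_isOpen hO]
  refine ⟨fun u hu => (hd u hu).differentiableAt.differentiableWithinAt, by simp, ?_⟩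
  rw [contDiffOn_zero]
  exact hL.congr fun u hu => (hd u hu).fderiv

end Der

end Vale.Agent.P207.H761
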