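import Vale.Agent.P207.H106.Zoom
import Vale.Agent.P207.H469.Ball

/-!
# P207, line N4: nearly intertwined smooth maps have nearly intertwined derivatives
-/

set_option maxSynthPendingDepth 3

namespace Vale.Agent.P207.H761

open Filter Topology Set Metric
open scoped ContDiff

/-- If `P' ∘ A₁ (p + ·) - v - A₂ (p₂ + P ·)` is of size `ρ` on the ball of radius `R`, then the
derivatives of the two maps are intertwined up to `C ρ^κ`, `κ < 1`. -/
theorem inter {E : Type} [NormedAddCommGroup E] [NormedSpace ℝ E] {R : ℝ} (hR : 0 < R) {κ : ℝ}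
    (hκ : κ < 1) (M : ℕ → ℝ) (hM : ∀ k, 0 ≤ M k) {c l : ℝ} (hc : 0 ≤ c) (hl : 0 ≤ l) :
    ∃ C : ℝ, 0 ≤ C ∧ ∀ (A₁ A₂ : E → E) (P' : E →L[ℝ] E) (P : E ≃L[ℝ] E) (p v p₂ : E) (ρ : ℝ),
      ContDiffOn ℝ ∞ A₁ (ball 0 1) → ContDiffOn ℝ ∞ A₂ (ball 0 1) →
      (∀ k, 1 ≤ k → ∀ q ∈ ball (0 : E) 1, ‖iteratedFDeriv ℝ k A₁ q‖ ≤ M k) →
      (∀ k, 1 ≤ k → ∀ q ∈ ball (0 : E) 1, ‖iteratedFDeriv ℝ k A₂ q‖ ≤ M k) →
      ‖P'‖ ≤ c → (∀ w, ‖P w‖ ≤ l * ‖w‖) →
      (∀ w ∈ ball (0 : E) R, p + w ∈ ball (0 : E) 1) →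
      (∀ w ∈ ball (0 : E) R, p₂ + P w ∈ ball (0 : E) 1) → 0 < ρ → ρ ≤ 1 →
      (∀ w ∈ ball (0 : E) R, ‖P' (A₁ (p + w)) - v - A₂ (p₂ + P w)‖ ≤ ρ) →
      ∀ w ∈ ball (0 : E) R, ‖P'.comp (fderiv ℝ A₁ (p + w)) -
        (fderiv ℝ A₂ (p₂ + P w)).comp (P : E →L[ℝ] E)‖ ≤ C * ρ ^ κ := by
  classical
  let MM : ℕ → ℝ := fun k => if k = 0 then 1 else c * M k + l ^ k * M k
  obtain ⟨C, hC, h⟩ := H469.exists_interp_full hR 1 (ε := 1 - κ) (by linarith) MM
  refine ⟨C, hC, fun A₁ A₂ P' P p v p₂ ρ h1 h2 hb1 hb2 hP' hP hd1 hd2 hρ hρ1 hZ w hw => ?_⟩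
  set Z : E → E := fun w => P' (A₁ (p + w)) - v - A₂ (p₂ + P w) with hZdef
  have ho : IsOpen (ball (0 : E) 1) := isOpen_ball
  have c1 : ∀ w ∈ ball (0 : E) R, ContDiffAt ℝ ∞ (fun w => P' (A₁ (p + w))) w := by
    intro w hw
    have e1 : ContDiffAt ℝ ∞ A₁ (p + w) := h1.contDiffAt (ho.mem_nhds (hd1 w hw))
    have e2 : ContDiffAt ℝ ∞ (fun w : E => p + w) w := by fun_prop
    exact P'.contDiff.contDiffAt.comp w (e1.comp w e2)
  have c2 : ∀ w ∈ ball (0 : E) R, ContDiffAt ℝ ∞ (fun w => A₂ (p₂ + P w)) w := by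
    intro w hw
    have e1 : ContDiffAt ℝ ∞ A₂ (p₂ + P w) := h2.contDiffAt (ho.mem_nhds (hd2 w hw))
    have e2 : ContDiffAt ℝ ∞ (fun w : E => p₂ + P w) w :=
      contDiffAt_const.add P.contDiff.contDiffAt
    exact e1.comp w e2
  have hZc : ContDiffOn ℝ ∞ Z (ball 0 R) := fun w hw =>
    (((c1 w hw).sub contDiffAt_const).sub (c2 w hw)).contDiffWithinAt
  have b1 : ∀ k, 1 ≤ k → ∀ w ∈ ball (0 : E) R,
      ‖iteratedFDeriv ℝ k (fun w => P' (A₁ (p + w))) w‖ ≤ c * M k := by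
    intro k hk w hw
    have e0 : iteratedFDeriv ℝ k (fun w => P' (A₁ (p + w))) w =
        iteratedFDeriv ℝ k (fun z => P' (A₁ z)) (p + w) :=
      iteratedFDeriv_comp_add_left (f := fun z => P' (A₁ z)) k p w
    rw [e0]
    have e1 := H106.norm_iterated_comp ho h1 (ContinuousLinearEquiv.refl ℝ E) (l := 1)
      (fun x => by simp) zero_le_one P' hP' k (x := p + w) (by simpa using hd1 w hw)
    simp only [ContinuousLinearEquiv.refl_apply, one_pow, mul_one] at e1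
    exact e1.trans (mul_le_mul_of_nonneg_left (hb1 k hk _ (hd1 w hw)) hc)
  have b2 : ∀ k, 1 ≤ k → ∀ w ∈ ball (0 : E) R,
      ‖iteratedFDeriv ℝ k (fun w => A₂ (p₂ + P w)) w‖ ≤ l ^ k * M k := by
    intro k hk w hw
    set p₃ := P.symm p₂ with hp3
    have e00 : ∀ w, p₂ + P w = P (p₃ + w) := by
      intro w; rw [map_add, hp3, ContinuousLinearEquiv.apply_symm_apply]
    have e0 : iteratedFDeriv ℝ k (fun w => A₂ (p₂ + P w)) w =
        iteratedFDeriv ℝ k (fun z => A₂ (P z)) (p₃ + w) := by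
      have : (fun w => A₂ (p₂ + P w)) = fun w => (fun z => A₂ (P z)) (p₃ + w) := by
        funext w; rw [e00]
      rw [this]
      exact iteratedFDeriv_comp_add_left (f := fun z => A₂ (P z)) k p₃ w
    rw [e0]
    have e1 := H106.norm_iterated_comp ho h2 P hP hl (ContinuousLinearMap.id ℝ E) (c := 1)
      ContinuousLinearMap.norm_id_le k (x := p₃ + w) (by rw [← e00]; exact hd2 w hw)
    simp only [ContinuousLinearMap.id_apply, one_mul] at e1
    refine e1.trans (mul_le_mul_of_nonneg_left ?_ (by positivity))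
    rw [← e00]
    exact hb2 k hk _ (hd2 w hw)
  have hZb : ∀ k, ∀ y ∈ ball (0 : E) R, ‖iteratedFDeriv ℝ k Z y‖ ≤ MM k := by
    intro k y hy
    rcases Nat.eq_zero_or_pos k with rfl | hk
    · simp only [norm_iteratedFDeriv_zero, MM, if_true]
      exact (hZ y hy).trans hρ1
    · have hk0 : k ≠ 0 := by omega
      simp only [MM, if_neg hk0]
      have d1 : ContDiffAt ℝ k (fun w => P' (A₁ (p + w))) y := (c1 y hy).of_le (by exact_mod_cast le_top)
      have d2 : ContDiffAt ℝ k (fun w => A₂ (p₂ + P w)) y := (c2 y hy).of_le (by exact_mod_cast le_top)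
      have e1 : iteratedFDeriv ℝ k Z y = iteratedFDeriv ℝ k (fun w => P' (A₁ (p + w))) y -
          iteratedFDeriv ℝ k (fun w => A₂ (p₂ + P w)) y := by
        have e2 : Z = ((fun w => P' (A₁ (p + w))) - fun _ => v) - fun w => A₂ (p₂ + P w) := rfl
        have d3 : ContDiffAt ℝ k (fun _ : E => v) y := contDiffAt_const
        have d0 : ContDiffAt ℝ k ((fun w => P' (A₁ (p + w))) - fun _ => v) y := d1.sub d3
        rw [e2, iteratedFDeriv_sub_apply d0 d2,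
          iteratedFDeriv_sub_apply d1 d3, iteratedFDeriv_const_of_ne hk0]
        simp
      rw [e1]
      exact (norm_sub_le _ _).trans (add_le_add (b1 k hk y hy) (b2 k hk y hy))
  have h5 := h E E Z hZc hZb ρ hρ hρ1 hZ w hw
  rw [norm_iteratedFDeriv_one, sub_sub_cancel] at h5
  have h6 : fderiv ℝ Z w = P'.comp (fderiv ℝ A₁ (p + w)) -
      (fderiv ℝ A₂ (p₂ + P w)).comp (P : E →L[ℝ] E) := by
    have f1 : HasFDerivAt A₁ (fderiv ℝ A₁ (p + w)) (p + w) :=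
      ((h1.contDiffAt (ho.mem_nhds (hd1 w hw))).differentiableAt (by simp)).hasFDerivAt
    have f2 : HasFDerivAt A₂ (fderiv ℝ A₂ (p₂ + P w)) (p₂ + P w) :=
      ((h2.contDiffAt (ho.mem_nhds (hd2 w hw))).differentiableAt (by simp)).hasFDerivAt
    have g1 : HasFDerivAt (fun w : E => p + w) (ContinuousLinearMap.id ℝ E) w :=
      (hasFDerivAt_id w).const_add p
    have g2 : HasFDerivAt (fun w : E => p₂ + P w) (P : E →L[ℝ] E) w :=
      (P : E →L[ℝ] E).hasFDerivAt.const_add p₂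
    have k1 : HasFDerivAt (fun w => A₁ (p + w)) (fderiv ℝ A₁ (p + w)) w := by
      have := HasFDerivAt.comp (g := A₁) (f := fun w : E => p + w) w f1 g1
      rw [ContinuousLinearMap.comp_id] at this
      exact this
    have k2 : HasFDerivAt (fun w => P' (A₁ (p + w))) (P'.comp (fderiv ℝ A₁ (p + w))) w :=
      P'.hasFDerivAt.comp w k1
    have k3 : HasFDerivAt (fun w => A₂ (p₂ + P w))
        ((fderiv ℝ A₂ (p₂ + P w)).comp (P : E →L[ℝ] E)) w := f2.comp w g2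
    exact ((k2.sub_const v).sub k3).fderiv
  rwa [h6] at h5

end Vale.Agent.P207.H761
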