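import Vale.Agent.P207.H761.Inter

/-!
# P207, line N4: `inter` for all `ρ ≥ 0`, and two elementary facts
-/

set_option maxSynthPendingDepth 3

namespace Vale.Agent.P207.H761

open Filter Topology Set Metric
open scoped ContDiff

/-- `inter` for all `ρ ≥ 0`, `0 < κ < 1`. -/
theorem inter' {E : Type} [NormedAddCommGroup E] [NormedSpace ℝ E] {R : ℝ} (hR : 0 < R) {κ : ℝ}
    (hκ0 : 0 < κ) (hκ : κ < 1) (M : ℕ → ℝ) (hM : ∀ k, 0 ≤ M k) {c l : ℝ} (hc : 0 ≤ c)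
    (hl : 0 ≤ l) :
    ∃ C : ℝ, 0 ≤ C ∧ ∀ (A₁ A₂ : E → E) (P' : E →L[ℝ] E) (P : E ≃L[ℝ] E) (p v p₂ : E) (ρ : ℝ),
      ContDiffOn ℝ ∞ A₁ (ball 0 1) → ContDiffOn ℝ ∞ A₂ (ball 0 1) →
      (∀ k, 1 ≤ k → ∀ q ∈ ball (0 : E) 1, ‖iteratedFDeriv ℝ k A₁ q‖ ≤ M k) →
      (∀ k, 1 ≤ k → ∀ q ∈ ball (0 : E) 1, ‖iteratedFDeriv ℝ k A₂ q‖ ≤ M k) →
      ‖P'‖ ≤ c → (∀ w, ‖P w‖ ≤ l * ‖w‖) →
      (∀ w ∈ ball (0 : E) R, p + w ∈ ball (0 : E) 1) →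
      (∀ w ∈ ball (0 : E) R, p₂ + P w ∈ ball (0 : E) 1) → 0 ≤ ρ →
      (∀ w ∈ ball (0 : E) R, ‖P' (A₁ (p + w)) - v - A₂ (p₂ + P w)‖ ≤ ρ) →
      ∀ w ∈ ball (0 : E) R, ‖P'.comp (fderiv ℝ A₁ (p + w)) -
        (fderiv ℝ A₂ (p₂ + P w)).comp (P : E →L[ℝ] E)‖ ≤ C * ρ ^ κ := by
  obtain ⟨C, hC, h⟩ := inter (E := E) hR hκ M hM hc hl
  refine ⟨max C (c * M 1 + M 1 * l), hC.trans (le_max_left _ _),
    fun A₁ A₂ P' P p v p₂ ρ h1 h2 hb1 hb2 hP' hP hd1 hd2 hρ hZ w hw => ?_⟩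
  rcases le_or_gt ρ 1 with hρ1 | hρ1
  · have key : ∀ r : ℝ, 0 < r → r ≤ 1 → ρ ≤ r → ‖P'.comp (fderiv ℝ A₁ (p + w)) -
        (fderiv ℝ A₂ (p₂ + P w)).comp (P : E →L[ℝ] E)‖ ≤ C * r ^ κ := fun r hr hr1 hrr =>
      h A₁ A₂ P' P p v p₂ r h1 h2 hb1 hb2 hP' hP hd1 hd2 hr hr1 (fun w hw => (hZ w hw).trans hrr)
        w hw
    have hρ2 : C * ρ ^ κ ≤ max C (c * M 1 + M 1 * l) * ρ ^ κ :=
      mul_le_mul_of_nonneg_right (le_max_left _ _) (Real.rpow_nonneg hρ _)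
    refine le_trans ?_ hρ2
    rcases hρ.eq_or_lt with h0 | h0
    · rw [← h0, Real.zero_rpow hκ0.ne', mul_zero]
      have ht : Tendsto (fun r : ℝ => C * r ^ κ) (𝓝[>] 0) (𝓝 (C * 0 ^ κ)) := by
        refine Tendsto.const_mul C ?_
        exact ((Real.continuous_rpow_const hκ0.le).tendsto 0).mono_left nhdsWithin_le_nhds
      rw [Real.zero_rpow hκ0.ne', mul_zero] at ht
      refine ge_of_tendsto ht ?_
      filter_upwards [Ioo_mem_nhdsGT (zero_lt_one' ℝ)] with r hr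
      exact key r hr.1 hr.2.le (by rw [← h0]; exact hr.1.le)
    · exact key ρ h0 hρ1 le_rfl
  · have h3 : ‖fderiv ℝ A₁ (p + w)‖ ≤ M 1 := by
      rw [← norm_iteratedFDeriv_one]; exact hb1 1 le_rfl _ (hd1 w hw)
    have h4 : ‖fderiv ℝ A₂ (p₂ + P w)‖ ≤ M 1 := by
      rw [← norm_iteratedFDeriv_one]; exact hb2 1 le_rfl _ (hd2 w hw)
    have h5 : ‖(P : E →L[ℝ] E)‖ ≤ l := ContinuousLinearMap.opNorm_le_bound _ hl hP
    have h6 : (1 : ℝ) ≤ ρ ^ κ := Real.one_le_rpow hρ1.le hκ0.le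
    have h7 : 0 ≤ c * M 1 + M 1 * l := add_nonneg (mul_nonneg hc (hM 1)) (mul_nonneg (hM 1) hl)
    calc _ ≤ ‖P'.comp (fderiv ℝ A₁ (p + w))‖ + ‖(fderiv ℝ A₂ (p₂ + P w)).comp (P : E →L[ℝ] E)‖ :=
          norm_sub_le _ _
      _ ≤ c * M 1 + M 1 * l := by
          refine add_le_add ((ContinuousLinearMap.opNorm_comp_le _ _).trans ?_)
            ((ContinuousLinearMap.opNorm_comp_le _ _).trans ?_)
          · exact mul_le_mul hP' h3 (norm_nonneg _) hc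
          · exact mul_le_mul h4 h5 (norm_nonneg _) (hM 1)
      _ ≤ (c * M 1 + M 1 * l) * ρ ^ κ := le_mul_of_one_le_right h7 h6
      _ ≤ _ := mul_le_mul_of_nonneg_right (le_max_right _ _) (Real.rpow_nonneg hρ _)

/-- a map close to the identity is invertible -/
theorem invertible_of_close {E : Type*} [NormedAddCommGroup E] [NormedSpace ℝ E] [CompleteSpace E]
    {A : E →L[ℝ] E} (h : ‖A - ContinuousLinearMap.id ℝ E‖ ≤ 1 / 2) : A.IsInvertible := by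
  have h1 : ‖1 - A‖ < 1 := by
    rw [norm_sub_rev]
    exact h.trans_lt (by norm_num)
  refine ⟨ContinuousLinearEquiv.unitsEquiv ℝ E (Units.oneSub (1 - A) h1), ?_⟩
  ext v
  change ((Units.oneSub (1 - A) h1 : (E →L[ℝ] E)ˣ) : E →L[ℝ] E) v = A v
  rw [Units.val_oneSub]
  simp

theorem norm_le_of_close {E : Type*} [NormedAddCommGroup E] [NormedSpace ℝ E]
    {A : E →L[ℝ] E} (h : ‖A - ContinuousLinearMap.id ℝ E‖ ≤ 1 / 2) (v : E) :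
    ‖A v‖ ≤ 2 * ‖v‖ ∧ ‖v‖ ≤ 2 * ‖A v‖ := by
  have h1 : ‖A v - v‖ ≤ 1 / 2 * ‖v‖ := by
    have := (A - ContinuousLinearMap.id ℝ E).le_of_opNorm_le h v
    simpa using this
  constructor
  · calc ‖A v‖ = ‖(A v - v) + v‖ := by rw [sub_add_cancel]
      _ ≤ ‖A v - v‖ + ‖v‖ := norm_add_le _ _
      _ ≤ 2 * ‖v‖ := by linarith [norm_nonneg v]
  · have : ‖v‖ ≤ ‖A v‖ + ‖A v - v‖ := by
      calc ‖v‖ = ‖A v - (A v - v)‖ := by rw [sub_sub_cancel]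
        _ ≤ _ := norm_sub_le _ _
    linarith

/-- the second order Taylor estimate -/
theorem taylor2 {E : Type*} [NormedAddCommGroup E] [NormedSpace ℝ E] {f : E → E} {C : ℝ}
    (hf : ContDiffOn ℝ ∞ f (ball 0 1))
    (hC : ∀ q ∈ ball (0 : E) 1, ‖iteratedFDeriv ℝ 2 f q‖ ≤ C) {q : E} (hq : q ∈ ball (0 : E) 1) :
    ‖fderiv ℝ f q - fderiv ℝ f 0‖ ≤ C * ‖q‖ ∧ ‖f q - f 0 - fderiv ℝ f 0 q‖ ≤ C * ‖q‖ ^ 2 := by
  have h0 : (0 : E) ∈ ball (0 : E) 1 := mem_ball_self one_pos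
  have hC0 : 0 ≤ C := (norm_nonneg _).trans (hC 0 h0)
  have hd : ∀ z ∈ ball (0 : E) 1, ContDiffAt ℝ ∞ f z := fun z hz =>
    hf.contDiffAt (isOpen_ball.mem_nhds hz)
  have h2i : (2 : WithTop ℕ∞) ≤ ∞ := WithTop.coe_le_coe.2 (le_top : (2 : ℕ∞) ≤ ⊤)
  have hd2 : ∀ z ∈ ball (0 : E) 1, DifferentiableAt ℝ (fderiv ℝ f) z := fun z hz =>
    (((hd z hz).of_le h2i).fderiv_right (m := 1) (by norm_num)).differentiableAt (by norm_num)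
  have hn : ∀ z ∈ ball (0 : E) 1, ‖fderiv ℝ (fderiv ℝ f) z‖ ≤ C := fun z hz => by
    rw [← norm_iteratedFDeriv_one, norm_iteratedFDeriv_fderiv]
    exact hC z hz
  have h1 : ∀ z ∈ ball (0 : E) 1, ‖fderiv ℝ f z - fderiv ℝ f 0‖ ≤ C * ‖z‖ := fun z hz => by
    have := (convex_ball (0 : E) 1).norm_image_sub_le_of_norm_fderiv_le hd2 hn h0 hz
    rwa [sub_zero] at this
  refine ⟨h1 q hq, ?_⟩
  have hsub : closedBall (0 : E) ‖q‖ ⊆ ball 0 1 := closedBall_subset_ball (by simpa using hq)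
  have h3 := (convex_closedBall (0 : E) ‖q‖).norm_image_sub_le_of_norm_fderiv_le' (𝕜 := ℝ)
    (f := f) (φ := fderiv ℝ f 0) (C := C * ‖q‖) (x := 0) (y := q)
    (fun z hz => (hd z (hsub hz)).differentiableAt (by simp))
    (fun z hz => (h1 z (hsub hz)).trans (mul_le_mul_of_nonneg_left (by simpa using hz) hC0))
    (mem_closedBall_self (norm_nonneg _)) (by simp)
  rw [sub_zero] at h3
  refine h3.trans_eq ?_
  ring

end Vale.Agent.P207.H761
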