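import Mathlib

namespace Vale.Agent.P207.H761

open Filter Topology Set Module

section Gen

variable {E E' : Type*} [NormedAddCommGroup E] [NormedSpace ℝ E] [FiniteDimensional ℝ E]
  [NormedAddCommGroup E'] [NormedSpace ℝ E'] [FiniteDimensional ℝ E']

omit [FiniteDimensional ℝ E] in
/-- A path in the direction of `F` is mapped by `h` into the direction of `F'`. -/
theorem diff_mem {F : Submodule ℝ E} {F' : Submodule ℝ E'} {p : E} {h : E → E'}
    (hC : ∀ x, x ≠ p → DifferentiableAt ℝ h x)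
    (hF : ∀ x, x ≠ p → ∀ v ∈ F, fderiv ℝ h x v ∈ F') {q : E}
    (hne : ∀ v ∈ F, q + v ≠ p) {v : E} (hv : v ∈ F) : h (q + v) - h q ∈ F' := by
  obtain ⟨G, hG⟩ := F'.exists_isCompl
  let L : E' →ₗ[ℝ] G := G.projectionOnto F' hG.symm
  have hker : ∀ x : E', L x = 0 ↔ x ∈ F' := by
    intro x
    have := Submodule.ker_projectionOnto hG.symm
    rw [← LinearMap.mem_ker, this]
  let Lc : E' →L[ℝ] G := LinearMap.toContinuousLinearMap L
  have hLc : ∀ x, Lc x = L x := fun x => rfl
  let g : ℝ → G := fun t => Lc (h (q + t • v))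
  have hg : ∀ t, HasDerivAt g 0 t := by
    intro t
    have hx : q + t • v ≠ p := hne _ (F.smul_mem t hv)
    have h1 : HasFDerivAt h (fderiv ℝ h (q + t • v)) (q + t • v) := (hC _ hx).hasFDerivAt
    have h2 : HasDerivAt (fun t : ℝ => q + t • v) v t := by
      have := ((hasDerivAt_id t).smul_const v).const_add q
      simpa using this
    have h3 : HasDerivAt (fun t : ℝ => h (q + t • v)) (fderiv ℝ h (q + t • v) v) t :=
      h1.comp_hasDerivAt t h2
    have h4 : HasDerivAt g (Lc (fderiv ℝ h (q + t • v) v)) t :=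
      Lc.hasFDerivAt.comp_hasDerivAt t h3
    have h5 : Lc (fderiv ℝ h (q + t • v) v) = 0 := by
      rw [hLc, hker]
      exact hF _ hx v hv
    rwa [h5] at h4
  have hconst : g 1 = g 0 := by
    apply is_const_of_deriv_eq_zero (fun t => (hg t).differentiableAt) (fun t => (hg t).deriv)
  have : Lc (h (q + v) - h q) = 0 := by
    rw [map_sub, sub_eq_zero]
    simpa [g] using hconst
  rwa [hLc, hker] at this

/-- PUNCTURE LEMMA. -/
theorem punct_gen {F : Submodule ℝ E} {F' : Submodule ℝ E'} (h0 : F ≠ ⊥) (h1 : F ≠ ⊤)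
    (hdim : finrank ℝ F' = finrank ℝ F) {p : E} {p' : E'} {h : E → E'}
    (hp : ∀ x, x ≠ p → h x ≠ p') (hC : ContDiffOn ℝ 1 h {p}ᶜ)
    (hi : ∀ x, x ≠ p → Function.Injective (fderiv ℝ h x))
    (hF : ∀ x, x ≠ p → ∀ v ∈ F, fderiv ℝ h x v ∈ F')
    (hinf : Tendsto h (cocompact E) (𝓝 p')) : False := by
  have hCd : ∀ x, x ≠ p → ContDiffAt ℝ 1 h x := fun x hx =>
    hC.contDiffAt (isOpen_compl_singleton.mem_nhds hx)
  have hD : ∀ x, x ≠ p → DifferentiableAt ℝ h x := fun x hx =>
    (hCd x hx).differentiableAt one_ne_zero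
  obtain ⟨w, -, hw⟩ := SetLike.exists_of_lt h1.lt_top
  obtain ⟨q, rfl⟩ : ∃ q, w = q - p := ⟨w + p, by simp⟩
  have hne : ∀ v ∈ F, q + v ≠ p := by
    intro v hv he
    apply hw
    have : q - p = -v := by rw [← he]; abel
    rw [this]; exact F.neg_mem hv
  have hqp : q ≠ p := by simpa using hne 0 F.zero_mem
  set z := h q with hz
  have hzp : z ≠ p' := hp q hqp
  have hmem : ∀ v : F, h (q + v) - z ∈ F' := fun v => diff_mem hD hF hne v.2
  -- projection onto F'
  obtain ⟨G, hG⟩ := F'.exists_isCompl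
  let π : E' →L[ℝ] F' := LinearMap.toContinuousLinearMap (F'.projectionOnto G hG)
  have hπ : ∀ x : F', π x = x := fun x => Submodule.projectionOnto_apply_left hG x
  let f : F → F' := fun v => π (h (q + v) - z)
  have hf : ∀ v : F, (f v : E') = h (q + v) - z := by
    intro v
    have := hπ ⟨h (q + v) - z, hmem v⟩
    simp only [f]
    rw [this]
  let f1 : F → E' := fun v => h (q + v)
  have hf1c : Continuous f1 := by
    rw [continuous_iff_continuousAt]
    intro v
    exact ContinuousAt.comp (f := fun v : F => q + (v : E)) (hD _ (hne v v.2)).continuousAt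
      (by fun_prop)
  have hf1inf : Tendsto f1 (cocompact F) (𝓝 p') := by
    apply hinf.comp
    have e1 : IsClosedEmbedding (fun v : F => (v : E)) :=
      (F.closed_of_finiteDimensional).isClosedEmbedding_subtypeVal
    have e2 : IsClosedEmbedding (fun v : F => q + (v : E)) :=
      (Homeomorph.addLeft q).isClosedEmbedding.comp e1
    exact e2.tendsto_cocompact
  have hK : IsCompact (insert p' (range f1)) :=
    hf1inf.isCompact_insert_range_of_cocompact hf1c
  have hopen : IsOpenMap f := by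
    rw [isOpenMap_iff_nhds_le]
    intro v
    have hx : q + (v : E) ≠ p := hne v v.2
    have hs : HasStrictFDerivAt h (fderiv ℝ h (q + v)) (q + v) :=
      (hCd _ hx).hasStrictFDerivAt one_ne_zero
    have hs2 : HasStrictFDerivAt (fun v : F => q + (v : E)) F.subtypeL v :=
      F.subtypeL.hasStrictFDerivAt.const_add q
    have hs3 : HasStrictFDerivAt (fun v : F => h (q + (v : E)) - z)
        ((fderiv ℝ h (q + v)).comp F.subtypeL) v :=
      (HasStrictFDerivAt.comp v hs hs2).sub_const z
    have hs4 : HasStrictFDerivAt f (π.comp ((fderiv ℝ h (q + v)).comp F.subtypeL)) v :=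
      π.hasStrictFDerivAt.comp v hs3
    have hinj : Function.Injective (π.comp ((fderiv ℝ h (q + v)).comp F.subtypeL) : F →L[ℝ] F') := by
      intro a b hab
      have ha := hπ ⟨fderiv ℝ h (q + v) a, hF _ hx a a.2⟩
      have hb := hπ ⟨fderiv ℝ h (q + v) b, hF _ hx b b.2⟩
      simp only [ContinuousLinearMap.comp_apply, Submodule.subtypeL_apply] at hab
      simp only at ha hb
      rw [ha, hb] at hab
      have := congrArg Subtype.val hab
      simp only at this
      exact Subtype.ext (hi _ hx this)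
    have hsurj : Function.Surjective (π.comp ((fderiv ℝ h (q + v)).comp F.subtypeL) : F →L[ℝ] F') := by
      have := LinearMap.injective_iff_surjective_of_finrank_eq_finrank (K := ℝ) hdim.symm
        (f := ((π.comp ((fderiv ℝ h (q + v)).comp F.subtypeL) : F →L[ℝ] F') : F →ₗ[ℝ] F'))
      exact this.1 hinj
    exact (hs4.map_nhds_eq_of_surj (LinearMap.range_eq_top.2 hsurj)).ge
  -- the ray
  have hray : ∃ d : F', d ≠ 0 ∧ ∀ s : ℝ, 0 ≤ s → z + s • (d : E') ≠ p' := by
    by_cases hc : z - p' ∈ F'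
    · refine ⟨⟨z - p', hc⟩, ?_, ?_⟩
      · intro he
        have := congrArg Subtype.val he
        simp only [ZeroMemClass.coe_zero] at this
        exact hzp (sub_eq_zero.1 this)
      · intro s hs he
        simp only at he
        have h2 : (1 + s) • (z - p') = 0 := by
          rw [add_smul, one_smul]
          have : z - p' + s • (z - p') = (z + s • (z - p')) - p' := by abel
          rw [this, he, sub_self]
        rcases smul_eq_zero.1 h2 with h3 | h3
        · linarith
        · exact hzp (sub_eq_zero.1 h3)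
    · have hpos : 0 < finrank ℝ F' := by
        rw [hdim]
        have : Nontrivial F := Submodule.nontrivial_iff_ne_bot.2 h0
        exact finrank_pos
      have : Nontrivial F' := finrank_pos_iff.1 hpos
      obtain ⟨d, hd⟩ := exists_ne (0 : F')
      refine ⟨d, hd, ?_⟩
      intro s _ he
      apply hc
      have : z - p' = -(s • (d : E')) := by rw [← he]; abel
      rw [this]
      exact F'.neg_mem (F'.smul_mem s d.2)
  obtain ⟨d, hd0, hd⟩ := hray
  let O : Set ℝ := {s : ℝ | s • d ∈ range f}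
  have hOopen : IsOpen O := by
    have : O = (fun s : ℝ => s • d) ⁻¹' (range f) := rfl
    rw [this]
    exact hopen.isOpen_range.preimage (by fun_prop)
  have hO0 : (0 : ℝ) ∈ O := by
    refine ⟨0, ?_⟩
    apply Subtype.ext
    rw [hf]
    simp [hz]
  have hOr : ∀ s ∈ O, z + s • (d : E') ∈ range f1 := by
    rintro s ⟨v, hv⟩
    refine ⟨v, ?_⟩
    have := congrArg Subtype.val hv
    rw [hf] at this
    simp only [f1]
    rw [eq_add_of_sub_eq' this]
    rfl
  have hrO : ∀ s, z + s • (d : E') ∈ range f1 → s ∈ O := by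
    rintro s ⟨v, hv⟩
    refine ⟨v, ?_⟩
    apply Subtype.ext
    rw [hf]
    simp only [f1] at hv
    rw [hv]
    simp
  have hcl : closure O ∩ Ici 0 ⊆ O := by
    rintro s ⟨hs, hs0⟩
    have h2 : z + s • (d : E') ∈ insert p' (range f1) := by
      have hcont : Continuous (fun s : ℝ => z + s • (d : E')) := by fun_prop
      have hm : MapsTo (fun s : ℝ => z + s • (d : E')) O (insert p' (range f1)) :=
        fun t ht => Or.inr (hOr t ht)
      have := hm.closure hcont hs
      rwa [hK.isClosed.closure_eq] at this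
    rcases h2 with h2 | h2
    · exact absurd h2 (hd s hs0)
    · exact hrO s h2
  have hall : Ici (0 : ℝ) ⊆ O :=
    isPreconnected_Ici.subset_of_closure_inter_subset hOopen ⟨0, (mem_Ici.2 le_rfl), hO0⟩ hcl
  obtain ⟨R, hR⟩ := hK.isBounded.exists_norm_le
  have hd0' : 0 < ‖(d : E')‖ := by
    rw [norm_pos_iff]
    intro he
    exact hd0 (Subtype.ext he)
  have hR' := hR z (Or.inr ⟨0, by simp [f1, hz]⟩)
  have hRnn : 0 ≤ R := le_trans (norm_nonneg _) hR'
  set s := (2 * R + 1) / ‖(d : E')‖ with hs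
  have hs0 : 0 ≤ s := by positivity
  have h3 := hR (z + s • (d : E')) (Or.inr (hOr s (hall hs0)))
  have h4 : ‖s • (d : E')‖ ≤ ‖z + s • (d : E')‖ + ‖z‖ := by
    calc ‖s • (d : E')‖ = ‖(z + s • (d : E')) - z‖ := by congr 1; abel
      _ ≤ _ := norm_sub_le _ _
  rw [norm_smul, Real.norm_of_nonneg hs0, hs, div_mul_cancel₀ _ hd0'.ne'] at h4
  linarith

/-- PUNCTURE LEMMA, form with `F.map`. -/
theorem punct_map {F : Submodule ℝ E} {F' : Submodule ℝ E'} (h0 : F ≠ ⊥) (h1 : F ≠ ⊤)
    {p : E} {p' : E'} {h : E → E'}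
    (hp : ∀ x, x ≠ p → h x ≠ p') (hC : ∀ x, x ≠ p → ContDiffAt ℝ 1 h x)
    (hi : ∀ x, x ≠ p → Function.Injective (fderiv ℝ h x))
    (hF : ∀ x, x ≠ p → F.map (fderiv ℝ h x : E →ₗ[ℝ] E') = F')
    (hinf : Tendsto h (cocompact E) (𝓝 p')) : False := by
  have hne : ∃ x : E, x ≠ p := by
    have : Nontrivial F := Submodule.nontrivial_iff_ne_bot.2 h0
    have : Nontrivial E := Function.Injective.nontrivial F.subtype_injective
    exact exists_ne p
  obtain ⟨x, hx⟩ := hne
  have hdim : finrank ℝ F' = finrank ℝ F := by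
    rw [← hF x hx]
    exact (LinearEquiv.finrank_eq
      (Submodule.equivMapOfInjective (fderiv ℝ h x : E →ₗ[ℝ] E') (hi x hx) F)).symm
  exact punct_gen h0 h1 hdim hp (fun y hy => (hC y hy).contDiffWithinAt) hi
    (fun y hy v hv => by
      rw [← hF y hy]
      exact Submodule.mem_map_of_mem hv) hinf

end Gen

/-- PUNCTURE LEMMA in `ℝ^m`. -/
theorem punct {m : ℕ} {F F' : Submodule ℝ (EuclideanSpace ℝ (Fin m))} (h0 : F ≠ ⊥) (h1 : F ≠ ⊤)
    (hdim : finrank ℝ F' = finrank ℝ F) {p p' : EuclideanSpace ℝ (Fin m)}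
    {h : EuclideanSpace ℝ (Fin m) → EuclideanSpace ℝ (Fin m)}
    (hp : ∀ x, x ≠ p → h x ≠ p') (hC : ContDiffOn ℝ 1 h {p}ᶜ)
    (hi : ∀ x, x ≠ p → Function.Injective (fderiv ℝ h x))
    (hF : ∀ x, x ≠ p → ∀ v ∈ F, fderiv ℝ h x v ∈ F')
    (hinf : Tendsto h (cocompact _) (𝓝 p')) : False :=
  punct_gen h0 h1 hdim hp hC hi hF hinf

end Vale.Agent.P207.H761
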